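import Vale.Agent.P323.Fraenkel

/-!
P323: the Partition Principle implies the Axiom of Choice in every permutation model whose
stabilizers have a base without infinite cyclic quotients, in particular in every model given by
the full symmetric group of the atoms and an invariant family of supports.
-/

namespace Vale.Agent.Results.P323.NoCyclicQuotient

open Vale.Agent.P323

universe u

theorem result :
    (∀ (A G : Type u) [Group G] [MulAction G A] (F : NormalFilter G) (B : Set (Subgroup G)),
      B ⊆ Stabs F A → (∀ H ∈ Stabs F A, ∃ V ∈ B, V ≤ H) →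
      (∀ V ∈ B, ∀ g : G, V.map (MulAut.conj g).toMonoidHom ∈ B) →
      (∀ V ∈ B, ∀ W ∈ B, V ⊓ W ∈ B) →
      (∀ V ∈ B, ∀ φ : V →* Multiplicative ℤ, Function.Surjective φ →
        φ.ker.map V.subtype ∉ Stabs F A) →
      PPModel F A → ACModel F A) ∧
    ∀ (A : Type u) (I : Set (Set A)) (hne : ∃ E, E ∈ I)
      (hun : ∀ E ∈ I, ∀ E' ∈ I, E ∪ E' ∈ I)
      (hinv : ∀ E ∈ I, ∀ g : Equiv.Perm A, g '' E ∈ I), (∀ a, {a} ∈ I) →
      PPModel (suppFilter I hne hun hinv) A → ACModel (suppFilter I hne hun hinv) A :=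
  ⟨fun _ _ _ _ F B h1 h2 h3 h4 h5 h6 => pp_ac_of_base F B h1 h2 h3 h4 h5 h6,
    fun _ I hne hun hinv hs h => pp_ac_fraenkel I hne hun hinv hs h⟩

end Vale.Agent.Results.P323.NoCyclicQuotient
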