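import Vale.Agent.P323.Final
import Vale.Agent.P323.Torsion
import Vale.Agent.P323.Fraenkel

/-!
P323: large classes of permutation models in which the Partition Principle implies the Axiom
of Choice.
-/

namespace Vale.Agent.Results.P323.PPImpliesAC

open Vale.Agent.P323

universe u

theorem result :
    -- filters with fewer than continuum many double cosets
    (∀ (A G : Type u) [Group G] [MulAction G A] (F : NormalFilter G),
      (∀ H ∈ F.sets, ∀ K ∈ F.sets,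
        Cardinal.mk (MulAction.orbitRel.Quotient H (G ⧸ K)) < Cardinal.continuum) →
      PPModel F A → ACModel F A) ∧
    -- the general criterion with a base of stabilizers
    (∀ (A G : Type u) [Group G] [MulAction G A] (F : NormalFilter G) (B : Set (Subgroup G)),
      B ⊆ Stabs F A → (∀ H ∈ Stabs F A, ∃ V ∈ B, V ≤ H) →
      (∀ V ∈ B, ∀ g : G, V.map (MulAut.conj g).toMonoidHom ∈ B) →
      (∀ V ∈ B, ∀ V' ∈ B, ∀ t : G, (V ⊓ V').map (MulAut.conj t).toMonoidHom = V ⊓ V' →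
        (∀ n : ℕ, 0 < n → t ^ n ∉ V ⊓ V') →
        ∃ k : ℕ, 0 < k ∧ ∀ U ∈ B, ∀ U' ∈ B, (V ⊓ V') ⊔ Subgroup.zpowers (t ^ k) ≠ U ⊓ U') →
      PPModel F A → ACModel F A) ∧
    -- groups in which every element has finite order
    (∀ (A G : Type u) [Group G] [MulAction G A] (F : NormalFilter G),
      (∀ g : G, ∃ n : ℕ, 0 < n ∧ g ^ n = 1) → PPModel F A → ACModel F A) ∧
    -- supports, no small orbits
    (∀ (A G : Type u) [Group G] [MulAction G A] (I : Set (Set A)) (hne : ∃ E, E ∈ I)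
      (hun : ∀ E ∈ I, ∀ E' ∈ I, E ∪ E' ∈ I)
      (hinv : ∀ E ∈ I, ∀ g : G, (fun a => g • a) '' E ∈ I), (∀ a, {a} ∈ I) →
      (∀ E ∈ I, ∀ E' ∈ I, ∀ b : A,
        (∀ g : G, (∀ a ∈ E, g • a = a) → ∀ h : G, (∀ a ∈ E', h • a = a) → h • g • b = g • b) →
        ∀ g : G, (∀ a ∈ E, g • a = a) → g • b = b) →
      PPModel (suppG G I hne hun hinv) A → ACModel (suppG G I hne hun hinv) A) ∧
    -- supports, no cycles of length dividing `n`
    (∀ (A G : Type u) [Group G] [MulAction G A] (I : Set (Set A)) (hne : ∃ E, E ∈ I)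
      (hun : ∀ E ∈ I, ∀ E' ∈ I, E ∪ E' ∈ I)
      (hinv : ∀ E ∈ I, ∀ g : G, (fun a => g • a) '' E ∈ I), (∀ a, {a} ∈ I) →
      (∃ n : ℕ, 2 ≤ n ∧ ∀ (g : G) (a : A), g ^ n • a = a → g • a = a) →
      PPModel (suppG G I hne hun hinv) A → ACModel (suppG G I hne hun hinv) A) ∧
    -- supports, automorphisms of a linear order of the atoms
    (∀ (A G : Type u) [LinearOrder A] [Group G] [MulAction G A] (I : Set (Set A))
      (hne : ∃ E, E ∈ I) (hun : ∀ E ∈ I, ∀ E' ∈ I, E ∪ E' ∈ I)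
      (hinv : ∀ E ∈ I, ∀ g : G, (fun a => g • a) '' E ∈ I), (∀ a, {a} ∈ I) →
      (∀ (g : G) (a b : A), a ≤ b → g • a ≤ g • b) →
      PPModel (suppG G I hne hun hinv) A → ACModel (suppG G I hne hun hinv) A) ∧
    -- supports, the full symmetric group
    (∀ (A : Type u) (I : Set (Set A)) (hne : ∃ E, E ∈ I)
      (hun : ∀ E ∈ I, ∀ E' ∈ I, E ∪ E' ∈ I)
      (hinv : ∀ E ∈ I, ∀ g : Equiv.Perm A, g '' E ∈ I), (∀ a, {a} ∈ I) →
      PPModel (suppFilter I hne hun hinv) A → ACModel (suppFilter I hne hun hinv) A) :=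
  ⟨fun _ _ _ _ F h => main_thm F h,
    fun _ _ _ _ F B h1 h2 h3 h5 h6 => pp_ac_crit F B h1 h2 h3 h5 h6,
    fun _ _ _ _ F h => pp_ac_torsion F h,
    fun _ _ _ _ I hne hun hinv hs h hPP => pp_ac_noSmallOrbit I hne hun hinv hs h hPP,
    fun _ _ _ _ I hne hun hinv hs ⟨n, hn, h⟩ hPP =>
      pp_ac_root I hne hun hinv hs n hn h hPP,
    fun _ _ _ _ _ I hne hun hinv hs hm hPP => pp_ac_linear I hne hun hinv hm hs hPP,
    fun _ I hne hun hinv hs h => pp_ac_fraenkel I hne hun hinv hs h⟩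

end Vale.Agent.Results.P323.PPImpliesAC
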